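import Mathlib

namespace Vale.Agent.P196

/-- The (inner vertex) boundary of a set `F` of points of a `G`-set, with respect to a set `S` of
elements of `G`: the points of `F` which some element of `S`, or the inverse of some element of
`S`, moves out of `F`. -/
def bdry {G X : Type*} [Group G] [MulAction G X] (S : Set G) (F : Set X) : Set X :=
  {x | x ∈ F ∧ ∃ s ∈ S, s • x ∉ F ∨ s⁻¹ • x ∉ F}

/-- The ball of radius `n` around `x` in the Schreier graph of a `G`-set with respect to `S`: all
points `l.prod • x` with `l` a word of length at most `n` in the elements of `S` and their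
inverses. -/
def ball {G X : Type*} [Group G] [MulAction G X] (S : Set G) (x : X) (n : ℕ) : Set X :=
  {y | ∃ l : List G, l.length ≤ n ∧ (∀ s ∈ l, s ∈ S ∨ s⁻¹ ∈ S) ∧ l.prod • x = y}

/-- The topological full group `[[φ]]` of a homeomorphism `φ` of a topological space `X`: the
homeomorphisms `g` of `X` such that for some finite partition of `X` into clopen sets `U i` and
some integers `n i`, `g` agrees with `φ ^ (n i)` on `U i`. -/
def topFullGroup {X : Type*} [TopologicalSpace X] (φ : X ≃ₜ X) : Set (X ≃ₜ X) :=
  {g | ∃ (k : ℕ) (U : Fin k → Set X) (n : Fin k → ℤ), (∀ i, IsClopen (U i)) ∧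
    (∀ i j, i ≠ j → Disjoint (U i) (U j)) ∧ (⋃ i, U i) = Set.univ ∧
    ∀ i, ∀ x ∈ U i, g x = (φ ^ (n i)) x}

end Vale.Agent.P196
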