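import Mathlib
import Vale.Agent.P196.Defs

/-!
Cut-and-glue for actions of finitely presented groups.
-/

open scoped Pointwise

namespace Vale.Agent.P196

section Crossing

variable {G X : Type*} [Group G] [MulAction G X]

theorem bdry_subset (S : Set G) (F : Set X) : bdry S F ⊆ F := fun _ hx => hx.1

/-- Entering `F` from outside: one passes through the boundary. -/
theorem cross_in {E : Set G} (h1 : (1 : G) ∈ E) {F : Set X} :
    ∀ (k : ℕ) (w : G), w ∈ E ^ k → ∀ y : X, y ∉ F → w • y ∈ F →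
      ∃ g ∈ E ^ k, ∃ b ∈ bdry E F, w • y = g • b := by
  intro k
  induction k with
  | zero =>
    intro w hw y hy hwy
    simp only [pow_zero, Set.mem_one] at hw
    subst hw
    simp only [one_smul] at hwy
    exact absurd hwy hy
  | succ k ih =>
    intro w hw y hy hwy
    rw [pow_succ] at hw
    obtain ⟨w', hw', e, he, rfl⟩ := Set.mem_mul.1 hw
    by_cases hey : e • y ∈ F
    · refine ⟨w', Set.pow_subset_pow_right h1 (Nat.le_succ k) hw', e • y, ⟨hey, e, he, ?_⟩, ?_⟩
      · right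
        rwa [inv_smul_smul]
      · rw [mul_smul]
    · obtain ⟨g, hg, b, hb, h⟩ := ih w' hw' (e • y) hey (by rwa [← mul_smul])
      exact ⟨g, Set.pow_subset_pow_right h1 (Nat.le_succ k) hg, b, hb, by rw [mul_smul, h]⟩

/-- Leaving `F`: one passes through the boundary. -/
theorem cross_out {E : Set G} (h1 : (1 : G) ∈ E) {F : Set X} :
    ∀ (k : ℕ) (w : G), w ∈ E ^ k → ∀ y : X, y ∈ F → w • y ∉ F →
      ∃ g ∈ E ^ k, ∃ b ∈ bdry E F, w • y = g • b := by
  intro k
  induction k with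
  | zero =>
    intro w hw y hy hwy
    simp only [pow_zero, Set.mem_one] at hw
    subst hw
    simp only [one_smul] at hwy
    exact absurd hy hwy
  | succ k ih =>
    intro w hw y hy hwy
    have hw0 := hw
    rw [pow_succ] at hw
    obtain ⟨w', hw', e, he, rfl⟩ := Set.mem_mul.1 hw
    by_cases hey : e • y ∈ F
    · obtain ⟨g, hg, b, hb, h⟩ := ih w' hw' (e • y) hey (by rwa [← mul_smul])
      exact ⟨g, Set.pow_subset_pow_right h1 (Nat.le_succ k) hg, b, hb, by rw [mul_smul, h]⟩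
    · exact ⟨w' * e, hw0, y, ⟨hy, e, he, Or.inl hey⟩, rfl⟩

end Crossing

section Glue

variable {G X : Type*} [Group G] [MulAction G X]

/-- Data for gluing the two boundaries of `F' \ F`. -/
structure Glue (E : Set G) (M C : ℕ) (F F' : Set X) (p p' : Fin C → X) : Prop where
  one_mem : (1 : G) ∈ E
  inv_mem : ∀ e ∈ E, e⁻¹ ∈ E
  range_p : Set.range p = bdry E F
  range_p' : Set.range p' = bdry E F'
  thick : ∀ g ∈ E ^ (M + 1), ∀ x ∈ F, g • x ∈ F'
  patt : ∀ g ∈ E ^ M, ∀ h ∈ E ^ M, ∀ c d, g • p c = h • p d ↔ g • p' c = h • p' d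
  side : ∀ g ∈ E ^ M, ∀ c, g • p c ∈ F ↔ g • p' c ∈ F'

namespace Glue

variable {E : Set G} {M C : ℕ} {F F' : Set X} {p p' : Fin C → X}

theorem sub (D : Glue E M C F F' p p') : F ⊆ F' := by
  intro x hx
  have := D.thick 1 (Set.one_mem_pow D.one_mem) x hx
  rwa [one_smul] at this

theorem inv_mem_pow (hinv : ∀ e ∈ E, e⁻¹ ∈ E) : ∀ (k : ℕ) (g : G), g ∈ E ^ k → g⁻¹ ∈ E ^ k := by
  intro k
  induction k with
  | zero =>
    intro g hg
    simp only [pow_zero, Set.mem_one] at hg ⊢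
    rw [hg, inv_one]
  | succ k ih =>
    intro g hg
    rw [pow_succ] at hg
    obtain ⟨a, ha, e, he, rfl⟩ := Set.mem_mul.1 hg
    rw [mul_inv_rev, pow_succ']
    exact Set.mul_mem_mul (hinv e he) (ih a ha)

/-- A translate by `E ^ M` of a boundary point of `F'` is not in `F`. -/
theorem far (D : Glue E M C F F' p p') {g : G} (hg : g ∈ E ^ M) (c : Fin C) : g • p' c ∉ F := by
  intro h
  have hpc : p' c ∈ bdry E F' := D.range_p' ▸ Set.mem_range_self c
  obtain ⟨_, s, hs, hs'⟩ := hpc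
  have hg' : g⁻¹ ∈ E ^ M := inv_mem_pow D.inv_mem M g hg
  have key : ∀ e ∈ E, e • p' c ∈ F' := by
    intro e he
    have h2 : e * g⁻¹ ∈ E ^ (M + 1) := by
      rw [pow_succ']
      exact Set.mul_mem_mul he hg'
    have h3 := D.thick _ h2 _ h
    rwa [mul_smul, inv_smul_smul] at h3
  rcases hs' with hs' | hs'
  · exact hs' (key s hs)
  · exact hs' (key _ (D.inv_mem s hs))

open Classical in
/-- The folding map. -/
noncomputable def fold (F F' : Set X) (ψ ψ' : X → X) (z : X) : X :=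
  if z ∈ F then ψ z else if z ∈ F' then z else ψ' z

theorem fold_in {ψ ψ' : X → X} {z : X} (h : z ∈ F) : fold F F' ψ ψ' z = ψ z := by
  simp [fold, h]

theorem fold_mid {ψ ψ' : X → X} {z : X} (h : z ∉ F) (h' : z ∈ F') : fold F F' ψ ψ' z = z := by
  simp [fold, h, h']

theorem fold_out {ψ ψ' : X → X} {z : X} (h : z ∉ F) (h' : z ∉ F') :
    fold F F' ψ ψ' z = ψ' z := by
  simp [fold, h, h']

theorem exists_psi (D : Glue E M C F F' p p') :
    ∃ ψ : X → X, ∀ g ∈ E ^ M, ∀ c, ψ (g • p c) = g • p' c := by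
  classical
  let q : (↥(E ^ M)) × Fin C → X := fun a => (a.1 : G) • p a.2
  let q' : (↥(E ^ M)) × Fin C → X := fun a => (a.1 : G) • p' a.2
  have hf : q'.FactorsThrough q := by
    intro a b hab
    exact (D.patt _ a.1.2 _ b.1.2 _ _).1 hab
  refine ⟨Function.extend q q' id, fun g hg c => ?_⟩
  exact hf.extend_apply id (⟨g, hg⟩, c)

theorem exists_psi' (D : Glue E M C F F' p p') :
    ∃ ψ' : X → X, ∀ g ∈ E ^ M, ∀ c, ψ' (g • p' c) = g • p c := by
  classical
  let q : (↥(E ^ M)) × Fin C → X := fun a => (a.1 : G) • p a.2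
  let q' : (↥(E ^ M)) × Fin C → X := fun a => (a.1 : G) • p' a.2
  have hf : q.FactorsThrough q' := by
    intro a b hab
    exact (D.patt _ a.1.2 _ b.1.2 _ _).2 hab
  refine ⟨Function.extend q' q id, fun g hg c => ?_⟩
  exact hf.extend_apply id (⟨g, hg⟩, c)

variable {ψ ψ' : X → X}

theorem fold_eq (D : Glue E M C F F' p p') (hψ : ∀ g ∈ E ^ M, ∀ c, ψ (g • p c) = g • p' c)
    (hψ' : ∀ g ∈ E ^ M, ∀ c, ψ' (g • p' c) = g • p c) {g : G} (hg : g ∈ E ^ M) (c : Fin C) :
    fold F F' ψ ψ' (g • p c) = fold F F' ψ ψ' (g • p' c) := by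
  by_cases h : g • p c ∈ F
  · have h2 : g • p' c ∈ F' := (D.side g hg c).1 h
    rw [fold_in h, hψ g hg c, fold_mid (D.far hg c) h2]
  · have h2 : g • p' c ∉ F' := fun h2 => h ((D.side g hg c).2 h2)
    have h3 : g • p c ∈ F' := by
      have hpc : p c ∈ bdry E F := D.range_p ▸ Set.mem_range_self c
      exact D.thick g (Set.pow_subset_pow_right D.one_mem (Nat.le_succ M) hg) _ hpc.1
    rw [fold_mid h h3, fold_out (D.far hg c) h2, hψ' g hg c]

/-- The value of the folding map at translates of a boundary point lies in `F' \ F`. -/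
theorem fold_mem (D : Glue E M C F F' p p') (hψ : ∀ g ∈ E ^ M, ∀ c, ψ (g • p c) = g • p' c)
    {g : G} (hg : g ∈ E ^ M) (c : Fin C) :
    fold F F' ψ ψ' (g • p c) ∈ F' \ F := by
  by_cases h : g • p c ∈ F
  · have h2 : g • p' c ∈ F' := (D.side g hg c).1 h
    rw [fold_in h, hψ g hg c]
    exact ⟨h2, D.far hg c⟩
  · have h3 : g • p c ∈ F' := by
      have hpc : p c ∈ bdry E F := D.range_p ▸ Set.mem_range_self c
      exact D.thick g (Set.pow_subset_pow_right D.one_mem (Nat.le_succ M) hg) _ hpc.1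
    rw [fold_mid h h3]
    exact ⟨h3, h⟩

/-- Every point at distance at most `k ≤ M` from `F' \ F` is in `F' \ F` or is a translate of a
boundary point of `F` or of `F'`. -/
theorem cases (D : Glue E M C F F' p p') {k : ℕ} {w : G} (hw : w ∈ E ^ k)
    {y : X} (hy : y ∈ F' \ F) :
    (w • y ∈ F' \ F) ∨ (∃ g ∈ E ^ k, ∃ c, w • y = g • p c) ∨
      (∃ g ∈ E ^ k, ∃ c, w • y = g • p' c) := by
  by_cases h : w • y ∈ F
  · right; left
    obtain ⟨g, hg, b, hb, hgb⟩ := cross_in D.one_mem k w hw y hy.2 h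
    rw [← D.range_p] at hb
    obtain ⟨c, rfl⟩ := hb
    exact ⟨g, hg, c, hgb⟩
  · by_cases h' : w • y ∈ F'
    · left; exact ⟨h', h⟩
    · right; right
      obtain ⟨g, hg, b, hb, hgb⟩ := cross_out D.one_mem k w hw y hy.1 h'
      rw [← D.range_p'] at hb
      obtain ⟨c, rfl⟩ := hb
      exact ⟨g, hg, c, hgb⟩

theorem fold_smul_mem (D : Glue E M C F F' p p')
    (hψ : ∀ g ∈ E ^ M, ∀ c, ψ (g • p c) = g • p' c)
    (hψ' : ∀ g ∈ E ^ M, ∀ c, ψ' (g • p' c) = g • p c) {k : ℕ} (hk : k ≤ M)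
    {w : G} (hw : w ∈ E ^ k) {y : X} (hy : y ∈ F' \ F) :
    fold F F' ψ ψ' (w • y) ∈ F' \ F := by
  rcases D.cases hw hy with h | ⟨g, hg, c, h⟩ | ⟨g, hg, c, h⟩
  · rwa [fold_mid h.2 h.1]
  · rw [h]
    exact D.fold_mem hψ (Set.pow_subset_pow_right D.one_mem hk hg) c
  · have hg' := Set.pow_subset_pow_right D.one_mem hk hg
    rw [h, ← D.fold_eq hψ hψ' hg' c]
    exact D.fold_mem hψ hg' c

/-- Shadowing. -/
theorem shadow (D : Glue E M C F F' p p')
    (hψ : ∀ g ∈ E ^ M, ∀ c, ψ (g • p c) = g • p' c)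
    (hψ' : ∀ g ∈ E ^ M, ∀ c, ψ' (g • p' c) = g • p c) {k : ℕ} (hk : k + 1 ≤ M)
    {w : G} (hw : w ∈ E ^ k) {y : X} (hy : y ∈ F' \ F) {e : G} (he : e ∈ E) :
    fold F F' ψ ψ' (e • fold F F' ψ ψ' (w • y)) = fold F F' ψ ψ' (e • w • y) := by
  have hkM : k ≤ M := (Nat.le_succ k).trans hk
  have heg : ∀ g ∈ E ^ k, e * g ∈ E ^ M := by
    intro g hg
    refine Set.pow_subset_pow_right D.one_mem hk ?_
    rw [pow_succ']
    exact Set.mul_mem_mul he hg
  rcases D.cases hw hy with h | ⟨g, hg, c, h⟩ | ⟨g, hg, c, h⟩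
  · rw [fold_mid h.2 h.1]
  · have hgM := Set.pow_subset_pow_right D.one_mem hkM hg
    rw [h]
    by_cases h2 : g • p c ∈ F
    · rw [fold_in h2, hψ g hgM c, ← mul_smul, ← mul_smul, D.fold_eq hψ hψ' (heg g hg) c]
    · have h3 : g • p c ∈ F' := by
        have hpc : p c ∈ bdry E F := D.range_p ▸ Set.mem_range_self c
        exact D.thick g (Set.pow_subset_pow_right D.one_mem (Nat.le_succ M) hgM) _ hpc.1
      rw [fold_mid h2 h3]
  · have hgM := Set.pow_subset_pow_right D.one_mem hkM hg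
    rw [h]
    by_cases h2 : g • p' c ∈ F'
    · rw [fold_mid (D.far hgM c) h2]
    · rw [fold_out (D.far hgM c) h2, hψ' g hgM c, ← mul_smul, ← mul_smul,
        D.fold_eq hψ hψ' (heg g hg) c]

/-- The permutation of `F' \ F` given by a generator. -/
noncomputable def perm (D : Glue E M C F F' p p') (ψ ψ' : X → X)
    (hψ : ∀ g ∈ E ^ M, ∀ c, ψ (g • p c) = g • p' c)
    (hψ' : ∀ g ∈ E ^ M, ∀ c, ψ' (g • p' c) = g • p c) (hM : 2 ≤ M)
    (e : G) (he : e ∈ E) : Equiv.Perm ↥(F' \ F) where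
  toFun y := ⟨fold F F' ψ ψ' (e • (y : X)),
    D.fold_smul_mem hψ hψ' (k := 1) (by omega) (by simpa using he) y.2⟩
  invFun y := ⟨fold F F' ψ ψ' (e⁻¹ • (y : X)),
    D.fold_smul_mem hψ hψ' (k := 1) (by omega) (by simpa using D.inv_mem e he) y.2⟩
  left_inv y := by
    apply Subtype.ext
    simp only
    rw [D.shadow hψ hψ' (k := 1) hM (by simpa using he) y.2 (D.inv_mem e he), inv_smul_smul,
      fold_mid y.2.2 y.2.1]
  right_inv y := by
    apply Subtype.ext
    simp only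
    rw [D.shadow hψ hψ' (k := 1) hM (by simpa using D.inv_mem e he) y.2 he, smul_inv_smul,
      fold_mid y.2.2 y.2.1]

theorem perm_apply (D : Glue E M C F F' p p')
    (hψ : ∀ g ∈ E ^ M, ∀ c, ψ (g • p c) = g • p' c)
    (hψ' : ∀ g ∈ E ^ M, ∀ c, ψ' (g • p' c) = g • p c) (hM : 2 ≤ M)
    (e : G) (he : e ∈ E) (y : ↥(F' \ F)) :
    ((D.perm ψ ψ' hψ hψ' hM e he y : ↥(F' \ F)) : X) = fold F F' ψ ψ' (e • (y : X)) := rfl

theorem perm_inv_apply (D : Glue E M C F F' p p')
    (hψ : ∀ g ∈ E ^ M, ∀ c, ψ (g • p c) = g • p' c)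
    (hψ' : ∀ g ∈ E ^ M, ∀ c, ψ' (g • p' c) = g • p c) (hM : 2 ≤ M)
    (e : G) (he : e ∈ E) (y : ↥(F' \ F)) :
    (((D.perm ψ ψ' hψ hψ' hM e he)⁻¹ y : ↥(F' \ F)) : X) = fold F F' ψ ψ' (e⁻¹ • (y : X)) := rfl

/-- Evaluating a word of length at most `M - 1`. -/
theorem word (D : Glue E M C F F' p p')
    (hψ : ∀ g ∈ E ^ M, ∀ c, ψ (g • p c) = g • p' c)
    (hψ' : ∀ g ∈ E ^ M, ∀ c, ψ' (g • p' c) = g • p c) (hM : 2 ≤ M)
    {n : ℕ} (a : Fin n → G) (ha : ∀ i, a i ∈ E) :
    ∀ L : List (Fin n × Bool), L.length ≤ M →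
      (FreeGroup.lift a (FreeGroup.mk L) ∈ E ^ L.length) ∧
      ∀ y : ↥(F' \ F),
      ((FreeGroup.lift (fun i => D.perm ψ ψ' hψ hψ' hM (a i) (ha i)) (FreeGroup.mk L) y :
        ↥(F' \ F)) : X) = fold F F' ψ ψ' (FreeGroup.lift a (FreeGroup.mk L) • (y : X)) := by
  intro L
  induction L with
  | nil =>
    intro _
    refine ⟨by simp [FreeGroup.lift_mk], fun y => ?_⟩
    simp [FreeGroup.lift_mk, fold_mid y.2.2 y.2.1]
  | cons x L ih =>
    intro hL
    rw [List.length_cons] at hL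
    obtain ⟨ih1, ih2⟩ := ih (by omega)
    obtain ⟨i, s⟩ := x
    have hai : a i ∈ E := ha i
    cases s with
    | false =>
      constructor
      · rw [FreeGroup.lift_mk, List.map_cons, List.prod_cons, List.length_cons, pow_succ']
        refine Set.mul_mem_mul (D.inv_mem _ hai) ?_
        rw [FreeGroup.lift_mk] at ih1
        exact ih1
      · intro y
        have h := ih2 y
        rw [FreeGroup.lift_mk] at h ⊢
        rw [FreeGroup.lift_mk, List.map_cons, List.prod_cons, List.map_cons, List.prod_cons,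
          Equiv.Perm.mul_apply]
        simp only [cond_false]
        rw [D.perm_inv_apply hψ hψ' hM, h, D.shadow hψ hψ' hL ih1 y.2 (D.inv_mem _ hai),
          mul_smul, FreeGroup.lift_mk]
    | true =>
      constructor
      · rw [FreeGroup.lift_mk, List.map_cons, List.prod_cons, List.length_cons, pow_succ']
        refine Set.mul_mem_mul hai ?_
        rw [FreeGroup.lift_mk] at ih1
        exact ih1
      · intro y
        have h := ih2 y
        rw [FreeGroup.lift_mk] at h ⊢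
        rw [FreeGroup.lift_mk, List.map_cons, List.prod_cons, List.map_cons, List.prod_cons,
          Equiv.Perm.mul_apply]
        simp only [cond_true]
        rw [D.perm_apply hψ hψ' hM, h, D.shadow hψ hψ' hL ih1 y.2 hai,
          mul_smul, FreeGroup.lift_mk]

end Glue

end Glue

section Hom

variable {G X : Type*} [Group G] [MulAction G X]

/-- From glue data to an action of the group on the finite set `F' \ F`. -/
theorem exists_hom_of_glue {n : ℕ} (π : FreeGroup (Fin n) →* G) (hπ : Function.Surjective π)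
    (R : Set (FreeGroup (Fin n))) (hR : Subgroup.normalClosure R = π.ker)
    {E : Set G} (hE : ∀ i, π (FreeGroup.of i) ∈ E) {M C : ℕ} (hM : 2 ≤ M)
    (hRM : ∀ w ∈ R, w.toWord.length ≤ M)
    {F F' : Set X} {p p' : Fin C → X} (D : Glue E M C F F' p p') :
    ∃ f : G →* Equiv.Perm ↥(F' \ F), ∀ (i : Fin n) (y : ↥(F' \ F)),
      π (FreeGroup.of i) • (y : X) ∈ F' \ F →
        ((f (π (FreeGroup.of i)) y : ↥(F' \ F)) : X) = π (FreeGroup.of i) • (y : X) := by
  obtain ⟨ψ, hψ⟩ := D.exists_psi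
  obtain ⟨ψ', hψ'⟩ := D.exists_psi'
  let a : Fin n → G := fun i => π (FreeGroup.of i)
  let Φ : FreeGroup (Fin n) →* Equiv.Perm ↥(F' \ F) :=
    FreeGroup.lift (fun i => D.perm ψ ψ' hψ hψ' hM (a i) (hE i))
  have hπa : FreeGroup.lift a = π := by
    ext i
    simp [a]
  have hker : π.ker ≤ Φ.ker := by
    rw [← hR]
    apply Subgroup.normalClosure_le_normal
    intro w hw
    rw [SetLike.mem_coe, MonoidHom.mem_ker]
    have hw1 : π w = 1 := by
      have : w ∈ π.ker := hR ▸ Subgroup.subset_normalClosure hw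
      exact this
    apply Equiv.ext
    intro y
    apply Subtype.ext
    have h := (D.word hψ hψ' hM a hE w.toWord (hRM w hw)).2 y
    rw [FreeGroup.mk_toWord, hπa, hw1, one_smul, Glue.fold_mid y.2.2 y.2.1] at h
    exact h
  let f : G →* Equiv.Perm ↥(F' \ F) := MonoidHom.liftOfSurjective π hπ ⟨Φ, hker⟩
  have hf : ∀ w, f (π w) = Φ w := by
    intro w
    exact MonoidHom.liftOfRightInverse_comp_apply π _ _ ⟨Φ, hker⟩ w
  refine ⟨f, fun i y hy => ?_⟩
  rw [hf]
  have : Φ (FreeGroup.of i) = D.perm ψ ψ' hψ hψ' hM (a i) (hE i) := by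
    simp [Φ]
  rw [this, D.perm_apply hψ hψ' hM]
  exact Glue.fold_mid hy.2 hy.1

end Hom

section Main

variable {G X : Type*} [Group G] [MulAction G X]

/-- Every element of the subgroup generated by `S` leaves a set through its `S`-boundary, up to
finitely many translates depending only on the element. -/
theorem exists_window (S : Set G) (hS : Subgroup.closure S = ⊤) (g : G) :
    ∃ W : Set G, W.Finite ∧ ∀ (F : Set X) (x : X), x ∈ F → g • x ∉ F →
      ∃ h ∈ W, h • x ∈ bdry S F := by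
  have hg : g ∈ Submonoid.closure (S ∪ S⁻¹) := by
    rw [← Subgroup.closure_toSubmonoid, hS]
    exact Submonoid.mem_top g
  induction hg using Submonoid.closure_induction with
  | mem s hs =>
    refine ⟨{1}, Set.finite_singleton 1, fun F x hx hgx => ⟨1, rfl, ?_⟩⟩
    rw [one_smul]
    rcases hs with hs | hs
    · exact ⟨hx, s, hs, Or.inl hgx⟩
    · refine ⟨hx, s⁻¹, hs, Or.inr ?_⟩
      rwa [inv_inv]
  | one =>
    refine ⟨∅, Set.finite_empty, fun F x hx hgx => ?_⟩
    rw [one_smul] at hgx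
    exact absurd hx hgx
  | mul a b _ _ iha ihb =>
    obtain ⟨Wa, hWa, ha⟩ := iha
    obtain ⟨Wb, hWb, hb⟩ := ihb
    refine ⟨Wb ∪ (fun h => h * b) '' Wa, hWb.union (hWa.image _), fun F x hx hgx => ?_⟩
    by_cases hbx : b • x ∈ F
    · rw [mul_smul] at hgx
      obtain ⟨h, hh, hb'⟩ := ha F _ hbx hgx
      refine ⟨h * b, Or.inr ⟨h, hh, rfl⟩, ?_⟩
      rwa [mul_smul]
    · obtain ⟨h, hh, hb'⟩ := hb F _ hx hbx
      exact ⟨h, Or.inl hh, hb'⟩

/-- Boundaries with respect to finite sets are controlled by boundaries with respect to any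
generating set. -/
theorem exists_bdry_bound (S : Set G) (hS : Subgroup.closure S = ⊤) (E : Set G) (hE : E.Finite)
    (C : ℕ) :
    ∃ C' : ℕ, ∀ F : Set X, (bdry S F).Finite → (bdry S F).ncard ≤ C →
      (bdry E F).Finite ∧ (bdry E F).ncard ≤ C' := by
  classical
  choose W hW hW' using fun g : G => exists_window (X := X) S hS g
  let V : Set G := (⋃ e ∈ E, W e) ∪ (⋃ e ∈ E, W e⁻¹)
  have hV : V.Finite := (hE.biUnion fun e _ => hW e).union (hE.biUnion fun e _ => hW e⁻¹)
  refine ⟨V.ncard * C, fun F hF hFC => ?_⟩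
  have hsub : bdry E F ⊆ Set.image2 (fun (h : G) (b : X) => h⁻¹ • b) V (bdry S F) := by
    rintro x ⟨hx, e, he, h | h⟩
    · obtain ⟨w, hw, hb⟩ := hW' e F x hx h
      exact ⟨w, Or.inl (Set.mem_biUnion he hw), w • x, hb, inv_smul_smul w x⟩
    · obtain ⟨w, hw, hb⟩ := hW' e⁻¹ F x hx h
      exact ⟨w, Or.inr (Set.mem_biUnion he hw), w • x, hb, inv_smul_smul w x⟩
  have hfin : (Set.image2 (fun (h : G) (b : X) => h⁻¹ • b) V (bdry S F)).Finite :=
    hV.image2 _ hF
  refine ⟨hfin.subset hsub, (Set.ncard_le_ncard hsub hfin).trans ?_⟩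
  rw [← Set.image_prod]
  refine (Set.ncard_image_le (hV.prod hF)).trans ?_
  rw [Set.ncard_prod]
  exact Nat.mul_le_mul_left _ hFC

theorem exists_param {A : Set X} {C : ℕ} (hA : A.Finite) (hC : A.ncard ≤ C) (hne : A.Nonempty) :
    ∃ p : Fin C → X, Set.range p = A := by
  classical
  have : Fintype A := hA.fintype
  have hcard : Fintype.card A ≤ Fintype.card (Fin C) := by
    rw [Fintype.card_fin, ← Nat.card_eq_fintype_card]
    exact hC
  obtain ⟨ι⟩ := Function.Embedding.nonempty_of_card_le hcard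
  have : Nonempty A := hne.to_subtype
  refine ⟨fun c => (Function.invFun ι c : A), ?_⟩
  have hs : Function.Surjective (Function.invFun ι) := Function.invFun_surjective ι.injective
  have h2 : (fun c => ((Function.invFun ι c : A) : X)) = Subtype.val ∘ Function.invFun ι := rfl
  rw [h2, Set.range_comp, hs.range_eq, Set.image_univ, Subtype.range_coe]

theorem finite_subset_of_mono {F : ℕ → Set X} (hmono : Monotone F) (hU : ⋃ n, F n = Set.univ)
    {A : Set X} (hA : A.Finite) (n : ℕ) : ∃ m, n ≤ m ∧ A ⊆ F m := by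
  induction A, hA using Set.Finite.induction_on with
  | empty => exact ⟨n, le_rfl, Set.empty_subset _⟩
  | @insert a s _ _ ih =>
    obtain ⟨m, hm, hs⟩ := ih
    have ha : a ∈ ⋃ n, F n := hU ▸ Set.mem_univ a
    obtain ⟨k, hk⟩ := Set.mem_iUnion.1 ha
    refine ⟨max m k, hm.trans (le_max_left _ _), Set.insert_subset ?_ ?_⟩
    · exact hmono (le_max_right m k) hk
    · exact hs.trans (hmono (le_max_left m k))

theorem invariant_of_gen {n : ℕ} (π : FreeGroup (Fin n) →* G) (hπ : Function.Surjective π)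
    {T : Set X} (h1 : ∀ i, ∀ z ∈ T, π (FreeGroup.of i) • z ∈ T)
    (h2 : ∀ i, ∀ z ∈ T, (π (FreeGroup.of i))⁻¹ • z ∈ T) (g : G) : ∀ z ∈ T, g • z ∈ T := by
  obtain ⟨w, rfl⟩ := hπ g
  induction w using FreeGroup.induction_on with
  | C1 => intro z hz; simpa using hz
  | of i => exact h1 i
  | inv_of i _ => intro z hz; rw [map_inv]; exact h2 i z hz
  | mul x y hx hy => intro z hz; rw [map_mul, mul_smul]; exact hx _ (hy _ hz)

/-- The action produced by glue data is nontrivial. -/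
theorem exists_ne_one_of_glue [MulAction.IsPretransitive G X]
    {n : ℕ} (π : FreeGroup (Fin n) →* G) (hπ : Function.Surjective π)
    (R : Set (FreeGroup (Fin n))) (hR : Subgroup.normalClosure R = π.ker)
    {E : Set G} (hE : ∀ i, π (FreeGroup.of i) ∈ E) {M C : ℕ} (hM : 2 ≤ M)
    (hRM : ∀ w ∈ R, w.toWord.length ≤ M)
    {F F' : Set X} {p p' : Fin C → X} (D : Glue E M C F F' p p')
    (hF : F.Nonempty) (hF' : F' ≠ Set.univ) :
    ∃ f : G →* Equiv.Perm ↥(F' \ F), f ≠ 1 := by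
  have hE1 := D.one_mem
  have hEinv := D.inv_mem
  have hE' : ∀ i, (π (FreeGroup.of i))⁻¹ ∈ E := fun i => hEinv _ (hE i)
  obtain ⟨f, hf⟩ := exists_hom_of_glue π hπ R hR hE hM hRM D
  refine ⟨f, ?_⟩
  intro hf1
  have hsm : ∀ (k : ℕ) (g : G), k ≤ M + 1 → g ∈ E ^ k → ∀ x ∈ F, g • x ∈ F' := by
    intro k g hk hg x hx
    exact D.thick g (Set.pow_subset_pow_right hE1 hk hg) x hx
  -- a deep point
  let T : Set X := {z | ∃ e ∈ E, ∃ x ∈ F, z = e • x}
  have hTne : T ≠ Set.univ := by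
    intro hT
    apply hF'
    apply Set.eq_univ_of_forall
    intro z
    have hz : z ∈ T := hT ▸ Set.mem_univ z
    obtain ⟨e, he, x, hx, rfl⟩ := hz
    exact hsm 1 e (by omega) (by simpa using he) x hx
  obtain ⟨z, hzT, g, hg, x, hx, hzg⟩ : ∃ z, z ∉ T ∧ ∃ g ∈ E ^ 2, ∃ x ∈ F, z = g • x := by
    by_contra hcon
    push Not at hcon
    have hTin : ∀ e ∈ E, ∀ z ∈ T, e • z ∈ T := by
      rintro e he z ⟨e', he', x, hx, rfl⟩
      by_contra h
      refine hcon _ h (e * e') ?_ x hx ?_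
      · rw [pow_two]; exact Set.mul_mem_mul he he'
      · rw [mul_smul]
    obtain ⟨x, hx⟩ := hF
    have hxT : x ∈ T := ⟨1, hE1, x, hx, (one_smul G x).symm⟩
    apply hTne
    apply Set.eq_univ_of_forall
    intro y
    obtain ⟨g, rfl⟩ := MulAction.exists_smul_eq G x y
    exact invariant_of_gen π hπ (fun i => hTin _ (hE i)) (fun i => hTin _ (hE' i)) g x hxT
  have hzF : z ∉ F := fun h => hzT ⟨1, hE1, z, h, (one_smul G z).symm⟩
  have hzY : z ∈ F' \ F := by
    refine ⟨?_, hzF⟩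
    rw [hzg]
    exact hsm 2 g (by omega) hg x hx
  have hezY : ∀ e ∈ E, e • z ∈ F' \ F := by
    intro e he
    refine ⟨?_, fun h => hzT ⟨e⁻¹, hEinv e he, e • z, h, (inv_smul_smul e z).symm⟩⟩
    rw [hzg, ← mul_smul]
    refine hsm 3 (e * g) (by omega) ?_ x hx
    rw [pow_succ']
    exact Set.mul_mem_mul he hg
  have hfix : ∀ i, π (FreeGroup.of i) • z = z := by
    intro i'
    have h1 := hf i' ⟨z, hzY⟩ (hezY _ (hE i'))
    rw [hf1] at h1
    exact h1.symm
  have hfixG : ∀ g : G, g • z = z := by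
    intro g
    have := invariant_of_gen (T := {z}) π hπ
      (fun i y hy => by rw [Set.mem_singleton_iff] at hy ⊢; rw [hy, hfix])
      (fun i y hy => by
        rw [Set.mem_singleton_iff] at hy ⊢
        rw [hy, inv_smul_eq_iff, hfix]) g z rfl
    exact this
  obtain ⟨x0, hx0⟩ := hF
  obtain ⟨g0, hg0⟩ := MulAction.exists_smul_eq G z x0
  rw [hfixG] at hg0
  rw [hg0] at hzF
  exact hzF hx0

/-- A nonempty proper subset of a transitive `G`-set has nonempty boundary. -/
theorem bdry_nonempty [MulAction.IsPretransitive G X]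
    {n : ℕ} (π : FreeGroup (Fin n) →* G) (hπ : Function.Surjective π)
    {E : Set G} (hE : ∀ i, π (FreeGroup.of i) ∈ E) (hE' : ∀ i, (π (FreeGroup.of i))⁻¹ ∈ E)
    {F : Set X} (hF : F.Nonempty) (hF' : F ≠ Set.univ) : (bdry E F).Nonempty := by
  by_contra hemp
  rw [Set.not_nonempty_iff_eq_empty] at hemp
  have hin : ∀ e ∈ E, ∀ z ∈ F, e • z ∈ F := by
    intro e he z hz
    by_contra h
    have : z ∈ bdry E F := ⟨hz, e, he, Or.inl h⟩
    rw [hemp] at this
    exact this
  obtain ⟨x, hx⟩ := hF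
  apply hF'
  apply Set.eq_univ_of_forall
  intro y
  obtain ⟨g, rfl⟩ := MulAction.exists_smul_eq G x y
  exact invariant_of_gen π hπ (fun i => hin _ (hE i)) (fun i => hin _ (hE' i)) g x hx

/-- The code of a family of points indexed by a finite type, recording coincidences. -/
noncomputable def code {A X : Type*} [Nonempty A] (q : A → X) (F : Set X) :
    (A → A) × (A → Prop) := (fun a => Function.invFun q (q a), fun a => q a ∈ F)

theorem code_eq {A X : Type*} [Nonempty A] {q q' : A → X} {F F' : Set X}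
    (h : code q F = code q' F') :
    (∀ a b, q a = q b ↔ q' a = q' b) ∧ ∀ a, q a ∈ F ↔ q' a ∈ F' := by
  have h1 := congrArg Prod.fst h
  have h2 := congrArg Prod.snd h
  have key : ∀ (r : A → X) (a b : A), r a = r b ↔
      Function.invFun r (r a) = Function.invFun r (r b) := by
    intro r a b
    constructor
    · intro hab
      rw [hab]
    · intro hab
      rw [← Function.invFun_eq (⟨a, rfl⟩ : ∃ c, r c = r a), hab,
        Function.invFun_eq (⟨b, rfl⟩ : ∃ c, r c = r b)]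
  constructor
  · intro a b
    rw [key q a b, key q' a b]
    have ha := congrFun h1 a
    have hb := congrFun h1 b
    simp only [code] at ha hb
    rw [ha, hb]
  · intro a
    exact iff_of_eq (congrFun h2 a)

/-- Two indices with equal codes give glue data. -/
theorem glue_of_code {E : Set G} {M C : ℕ} (hE1 : (1 : G) ∈ E) (hEinv : ∀ e ∈ E, e⁻¹ ∈ E)
    [Nonempty (↥(E ^ M) × Fin C)]
    {F F' : Set X} {p p' : Fin C → X} (hp : Set.range p = bdry E F)
    (hp' : Set.range p' = bdry E F') (thick : ∀ g ∈ E ^ (M + 1), ∀ x ∈ F, g • x ∈ F')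
    (h : code (fun a : ↥(E ^ M) × Fin C => (a.1 : G) • p a.2) F =
      code (fun a : ↥(E ^ M) × Fin C => (a.1 : G) • p' a.2) F') : Glue E M C F F' p p' :=
  { one_mem := hE1
    inv_mem := hEinv
    range_p := hp
    range_p' := hp'
    thick := thick
    patt := fun g hg h' hh c d => (code_eq h).1 (⟨g, hg⟩, c) (⟨h', hh⟩, d)
    side := fun g hg c => (code_eq h).2 (⟨g, hg⟩, c) }

/-- **Main theorem.**  If a transitive action of a finitely presented group has an isolated thin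
end, then the group has a nontrivial action on a finite set. -/
theorem exists_finite_action [MulAction.IsPretransitive G X] [Group.IsFinitelyPresented G]
    (S : Set G) (hS : Subgroup.closure S = ⊤) (C : ℕ) (F : ℕ → Set X)
    (hmono : Monotone F) (hU : ⋃ n, F n = Set.univ) (hne : ∀ n, F n ≠ Set.univ)
    (hdiff : ∀ n, (F (n + 1) \ F n).Finite)
    (hb : ∀ n, (bdry S (F n)).Finite ∧ (bdry S (F n)).ncard ≤ C) :
    ∃ (Y : Set X) (_ : Y.Finite) (f : G →* Equiv.Perm Y), f ≠ 1 := by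
  classical
  obtain ⟨n, π, hπ, R, hRfin, hR⟩ := (inferInstance : Group.IsFinitelyPresented G).out
  -- the symmetric generating set
  let E : Set G := {1} ∪ (Set.range fun i => π (FreeGroup.of i)) ∪
    (Set.range fun i => (π (FreeGroup.of i))⁻¹)
  have hEfin : E.Finite :=
    ((Set.finite_singleton 1).union (Set.finite_range _)).union (Set.finite_range _)
  have hE1 : (1 : G) ∈ E := Or.inl (Or.inl rfl)
  have hEa : ∀ i, π (FreeGroup.of i) ∈ E := fun i => Or.inl (Or.inr ⟨i, rfl⟩)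
  have hEa' : ∀ i, (π (FreeGroup.of i))⁻¹ ∈ E := fun i => Or.inr ⟨i, rfl⟩
  have hEinv : ∀ e ∈ E, e⁻¹ ∈ E := by
    rintro e ((he | ⟨i, rfl⟩) | ⟨i, rfl⟩)
    · rw [Set.mem_singleton_iff.1 he, inv_one]; exact hE1
    · exact hEa' i
    · simp only [inv_inv]; exact hEa i
  -- the length bound
  obtain ⟨M, hM2, hRM⟩ : ∃ M : ℕ, 2 ≤ M ∧ ∀ w ∈ R, w.toWord.length ≤ M := by
    obtain ⟨M, hM⟩ := (hRfin.image fun w => w.toWord.length).bddAbove
    exact ⟨max 2 M, le_max_left _ _, fun w hw => (hM ⟨w, hw, rfl⟩).trans (le_max_right _ _)⟩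
  obtain ⟨C', hC'⟩ := exists_bdry_bound (X := X) S hS E hEfin C
  have hbE : ∀ n, (bdry E (F n)).Finite ∧ (bdry E (F n)).ncard ≤ C' :=
    fun n => hC' _ (hb n).1 (hb n).2
  -- finiteness of powers
  have hEpow : ∀ k : ℕ, (E ^ k).Finite := by
    intro k
    induction k with
    | zero => simp
    | succ k ih => rw [pow_succ]; exact ih.mul hEfin
  -- thickening
  have hthick : ∀ n, ∃ m, n ≤ m ∧ ∀ g ∈ E ^ (M + 1), ∀ x ∈ F n, g • x ∈ F m := by
    intro n
    obtain ⟨m, hm, hA⟩ := finite_subset_of_mono hmono hU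
      ((hEpow (M + 1)).smul (hbE n).1) n
    refine ⟨m, hm, fun g hg x hx => ?_⟩
    by_cases hgx : g • x ∈ F n
    · exact hmono hm hgx
    · obtain ⟨g', hg', b, hb', h⟩ := cross_out hE1 (M + 1) g hg x hx hgx
      rw [h]
      exact hA (Set.smul_mem_smul hg' hb')
  choose m hm1 hm2 using hthick
  -- a nonempty start
  obtain ⟨n0, hn0⟩ : ∃ n0, (F n0).Nonempty := by
    obtain ⟨x, hx⟩ : ∃ x, x ∉ F 0 := by
      by_contra h
      push Not at h
      exact hne 0 (Set.eq_univ_of_forall h)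
    have hx' : x ∈ ⋃ n, F n := hU ▸ Set.mem_univ x
    obtain ⟨k, hk⟩ := Set.mem_iUnion.1 hx'
    exact ⟨k, x, hk⟩
  let φ : ℕ → ℕ := fun k => Nat.rec n0 (fun _ r => m r) k
  have hφs : ∀ k, φ (k + 1) = m (φ k) := fun k => rfl
  have hφmono : Monotone φ := monotone_nat_of_le_succ fun k => by rw [hφs]; exact hm1 _
  have hφne : ∀ k, (F (φ k)).Nonempty := fun k => hn0.mono (hmono (hφmono (Nat.zero_le k)))
  have hφthick : ∀ i j, i < j → ∀ g ∈ E ^ (M + 1), ∀ x ∈ F (φ i), g • x ∈ F (φ j) := by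
    intro i j hij g hg x hx
    have h1 : g • x ∈ F (φ (i + 1)) := by rw [hφs]; exact hm2 _ g hg x hx
    exact hmono (hφmono hij) h1
  -- boundaries are nonempty
  have hbne : ∀ k, (bdry E (F (φ k))).Nonempty := fun k =>
    bdry_nonempty π hπ hEa hEa' (hφne k) (hne _)
  choose p hp using fun k => exists_param (hbE (φ k)).1 (hbE (φ k)).2 (hbne k)
  -- the codes
  have : Finite ↥(E ^ M) := (hEpow M).to_subtype
  have hC'0 : 0 < C' := by
    have h1 := (Set.ncard_pos (hbE (φ 0)).1).2 (hbne 0)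
    exact h1.trans_le (hbE (φ 0)).2
  have hne1 : Nonempty (↥(E ^ M) × Fin C') :=
    ⟨(⟨1, Set.one_mem_pow hE1⟩, ⟨0, hC'0⟩)⟩
  obtain ⟨i, j, hij, hcode⟩ : ∃ i j, i < j ∧
      code (fun a : ↥(E ^ M) × Fin C' => (a.1 : G) • p i a.2) (F (φ i)) =
      code (fun a : ↥(E ^ M) × Fin C' => (a.1 : G) • p j a.2) (F (φ j)) := by
    obtain ⟨i, j, hij, h⟩ := Finite.exists_ne_map_eq_of_infinite
      (fun k => code (fun a : ↥(E ^ M) × Fin C' => (a.1 : G) • p k a.2) (F (φ k)))
    rcases lt_or_gt_of_ne hij with h' | h'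
    · exact ⟨i, j, h', h⟩
    · exact ⟨j, i, h', h.symm⟩
  have D : Glue E M C' (F (φ i)) (F (φ j)) (p i) (p j) :=
    glue_of_code hE1 hEinv (hp i) (hp j) (hφthick i j hij) hcode
  obtain ⟨f, hf⟩ := exists_ne_one_of_glue π hπ R hR hEa hM2 hRM D (hφne i) (hne _)
  have hfinY : (F (φ j) \ F (φ i)).Finite := by
    have : ∀ a b, a ≤ b → (F b \ F a).Finite := by
      intro a b hab
      induction b, hab using Nat.le_induction with
      | base => simp
      | succ b _ ih =>
        refine (ih.union (hdiff b)).subset ?_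
        rintro x ⟨hx1, hx2⟩
        by_cases hxb : x ∈ F b
        · exact Or.inl ⟨hxb, hx2⟩
        · exact Or.inr ⟨hx1, hxb⟩
    exact this _ _ (hφmono hij.le)
  exact ⟨F (φ j) \ F (φ i), hfinY, f, hf⟩

end Main

end Vale.Agent.P196
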