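import Mathlib
import Vale.Agent.P196.Cor

open scoped Pointwise

namespace Vale.Agent.P196

universe u v

section

variable {G : Type u} [Group G]

/-- Powers of the symmetrised generating set move balls into balls. -/
theorem pow_smul_mem_ball {X : Type*} [MulAction G X] {S E : Set G}
    (hE : ∀ e ∈ E, e = 1 ∨ e ∈ S ∨ e⁻¹ ∈ S) (x : X) :
    ∀ (j : ℕ) (g : G), g ∈ E ^ j → ∀ (k : ℕ) (y : X), y ∈ ball S x k → g • y ∈ ball S x (k + j) := by
  intro j
  induction j with
  | zero =>
    intro g hg k y hy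
    simp only [pow_zero, Set.mem_one] at hg
    subst hg
    simpa using hy
  | succ j ih =>
    intro g hg k y hy
    rw [pow_succ'] at hg
    obtain ⟨e, he, g', hg', rfl⟩ := Set.mem_mul.1 hg
    have h1 := ih g' hg' k y hy
    rw [mul_smul]
    rcases hE e he with rfl | h | h
    · rw [one_smul]
      exact ball_mono S x (by omega) h1
    · exact smul_mem_ball h1 (Or.inl h)
    · exact smul_mem_ball h1 (Or.inr h)

theorem quant_core [Group.IsFinitelyPresented G] (S : Set G) (hSf : S.Finite)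
    (hS : Subgroup.closure S = ⊤) :
    ∃ L β D : ℕ, 1 ≤ L ∧ 1 ≤ β ∧ 1 ≤ D ∧
      ∀ (X : Type v) [MulAction G X] [MulAction.IsPretransitive G X] [Infinite X] (x : X),
        (∀ (Y : Set X), Y.Finite → ∀ f : G →* Equiv.Perm Y, f = 1) → ∀ s n : ℕ, 2 * L ≤ n →
        ((Finset.Ioc (n / 2) n).filter
          (fun k => (ball S x k \ ball S x (k - L)).ncard ≤ s)).card ≤
          D * (2 * (β * s)) ^ (β * s) := by
  classical
  obtain ⟨r, π, hπ, R, hRfin, hR⟩ := (inferInstance : Group.IsFinitelyPresented G).out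
  let E0 : Set G := {1} ∪ S ∪ S⁻¹
  have hE0fin : E0.Finite := ((Set.finite_singleton 1).union hSf).union hSf.inv
  have hE01 : (1 : G) ∈ E0 := Or.inl (Or.inl rfl)
  have hE0S : ∀ e ∈ E0, e = 1 ∨ e ∈ S ∨ e⁻¹ ∈ S := by
    rintro e ((he | he) | he)
    · exact Or.inl he
    · exact Or.inr (Or.inl he)
    · exact Or.inr (Or.inr he)
  have hE0inv : ∀ e ∈ E0, e⁻¹ ∈ E0 := by
    rintro e ((he | he) | he)
    · rw [Set.mem_singleton_iff.1 he, inv_one]; exact hE01
    · exact Or.inr (by simpa using he)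
    · exact Or.inl (Or.inr he)
  have hgen : ∀ g : G, ∃ j, g ∈ E0 ^ j := by
    intro g
    have hg : g ∈ Submonoid.closure (S ∪ S⁻¹) := by
      rw [← Subgroup.closure_toSubmonoid, hS]
      exact Submonoid.mem_top g
    induction hg using Submonoid.closure_induction with
    | mem s hs =>
      refine ⟨1, ?_⟩
      rw [pow_one]
      rcases hs with hs | hs
      · exact Or.inl (Or.inr hs)
      · exact Or.inr hs
    | one => exact ⟨0, by simp⟩
    | mul a b _ _ iha ihb =>
      obtain ⟨i, hi⟩ := iha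
      obtain ⟨j, hj⟩ := ihb
      exact ⟨i + j, by rw [pow_add]; exact Set.mul_mem_mul hi hj⟩
  choose len hlen using hgen
  let L : ℕ := 1 + Finset.univ.sup fun i : Fin r => len (π (FreeGroup.of i))
  let E : Set G := E0 ^ L
  have hE1 : (1 : G) ∈ E := Set.one_mem_pow hE01
  have hEinv : ∀ e ∈ E, e⁻¹ ∈ E := Glue.inv_mem_pow hE0inv L
  have hEa : ∀ i, π (FreeGroup.of i) ∈ E := by
    intro i
    refine Set.pow_subset_pow_right hE01 ?_ (hlen _)
    have : len (π (FreeGroup.of i)) ≤ Finset.univ.sup fun i : Fin r => len (π (FreeGroup.of i)) :=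
      Finset.le_sup (f := fun i : Fin r => len (π (FreeGroup.of i))) (Finset.mem_univ i)
    omega
  have hEa' : ∀ i, (π (FreeGroup.of i))⁻¹ ∈ E := fun i => hEinv _ (hEa i)
  obtain ⟨M, hM2, hRM⟩ : ∃ M : ℕ, 2 ≤ M ∧ ∀ w ∈ R, w.toWord.length ≤ M := by
    obtain ⟨M, hM⟩ := (hRfin.image fun w => w.toWord.length).bddAbove
    exact ⟨max 2 M, le_max_left _ _, fun w hw => (hM ⟨w, hw, rfl⟩).trans (le_max_right _ _)⟩
  have hE0pow : ∀ k : ℕ, (E0 ^ k).Finite := by
    intro k
    induction k with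
    | zero => simp
    | succ k ih => rw [pow_succ]; exact ih.mul hE0fin
  have hEM : (E ^ M).Finite := by
    have : E ^ M = E0 ^ (L * M) := (pow_mul E0 L M).symm
    rw [this]
    exact hE0pow _
  have hfinEM : Finite ↥(E ^ M) := hEM.to_subtype
  have hneEM : Nonempty ↥(E ^ M) := ⟨⟨1, Set.one_mem_pow hE1⟩⟩
  refine ⟨L, Nat.card ↥(E ^ M), L * (M + 1), by omega, Nat.card_pos, ?_, ?_⟩
  · exact Nat.mul_pos (by omega) (by omega)
  intro X _ _ _ x hact s n hn
  -- facts on balls
  have hballfin : ∀ k, (ball S x k).Finite := fun k => ball_finite hSf x k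
  have hballne : ∀ k, (ball S x k).Nonempty := fun k => ⟨x, [], by simp, by simp, by simp⟩
  have hballuniv : ∀ k, ball S x k ≠ Set.univ := by
    intro k h
    have := hballfin k
    rw [h] at this
    exact Set.infinite_univ this
  have hthick : ∀ (k : ℕ), ∀ g ∈ E ^ (M + 1), ∀ y ∈ ball S x k,
      g • y ∈ ball S x (k + L * (M + 1)) := by
    intro k g hg y hy
    have h1 : E ^ (M + 1) = E0 ^ (L * (M + 1)) := (pow_mul E0 L (M + 1)).symm
    rw [h1] at hg
    exact pow_smul_mem_ball hE0S x _ g hg k y hy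
  have hband : ∀ k, L ≤ k → bdry E (ball S x k) ⊆ ball S x k \ ball S x (k - L) := by
    intro k hk
    rintro y ⟨hy, e, he, he'⟩
    refine ⟨hy, fun hyk => ?_⟩
    have h1 := pow_smul_mem_ball hE0S x L e he (k - L) y hyk
    have h2 := pow_smul_mem_ball hE0S x L e⁻¹ (hEinv e he) (k - L) y hyk
    rw [Nat.sub_add_cancel hk] at h1 h2
    rcases he' with he' | he'
    · exact he' h1
    · exact he' h2
  set A : Finset ℕ := (Finset.Ioc (n / 2) n).filter
    (fun k => (ball S x k \ ball S x (k - L)).ncard ≤ s) with hA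
  have hAmem : ∀ k ∈ A, L ≤ k ∧ (ball S x k \ ball S x (k - L)).ncard ≤ s := by
    intro k hk
    rw [hA, Finset.mem_filter, Finset.mem_Ioc] at hk
    exact ⟨by omega, hk.2⟩
  have hbA : ∀ k ∈ A, (bdry E (ball S x k)).ncard ≤ s := by
    intro k hk
    obtain ⟨h1, h2⟩ := hAmem k hk
    exact (Set.ncard_le_ncard (hband k h1) ((hballfin k).subset Set.sdiff_subset)).trans h2
  have hbfin : ∀ k, (bdry E (ball S x k)).Finite := fun k => (hballfin k).subset (bdry_subset _ _)
  have hbne : ∀ k, (bdry E (ball S x k)).Nonempty := fun k =>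
    bdry_nonempty π hπ hEa hEa' (hballne k) (hballuniv k)
  rcases Nat.eq_zero_or_pos s with rfl | hs
  · have hAe : A = ∅ := by
      rw [Finset.eq_empty_iff_forall_notMem]
      intro k hk
      have h1 := hbA k hk
      have h2 := (Set.ncard_pos (hbfin k)).2 (hbne k)
      omega
    rw [hAe]
    simp
  have hpex : ∀ k, ∃ p : Fin s → X, k ∈ A → Set.range p = bdry E (ball S x k) := by
    intro k
    by_cases hk : k ∈ A
    · obtain ⟨p, hp⟩ := exists_param (hbfin k) (hbA k hk) (hbne k)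
      exact ⟨p, fun _ => hp⟩
    · exact ⟨fun _ => x, fun h => absurd h hk⟩
  choose p hp using hpex
  by_contra hcon
  push Not at hcon
  let T : Type _ := ↥(E ^ M) × Fin s
  have hTne : Nonempty T := ⟨(⟨1, Set.one_mem_pow hE1⟩, ⟨0, hs⟩)⟩
  have hTfin : Finite T := inferInstanceAs (Finite (↥(E ^ M) × Fin s))
  let Dn : ℕ := L * (M + 1)
  have hDn : 0 < Dn := Nat.mul_pos (by omega) (by omega)
  let cd : ℕ → Fin Dn × ((T → T) × (T → Prop)) := fun k =>
    (⟨k % Dn, Nat.mod_lt _ hDn⟩, code (fun a : T => (a.1 : G) • p k a.2) (ball S x k))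
  have hcard : Nat.card (Fin Dn × ((T → T) × (T → Prop))) =
      Dn * (2 * (Nat.card ↥(E ^ M) * s)) ^ (Nat.card ↥(E ^ M) * s) := by
    have hT : Nat.card T = Nat.card ↥(E ^ M) * s := by
      rw [Nat.card_prod, Nat.card_fin]
    rw [Nat.card_prod, Nat.card_prod, Nat.card_fun, Nat.card_fun, Nat.card_fin, hT, mul_pow]
    have hP : Nat.card Prop = 2 := by
      rw [Nat.card_eq_fintype_card, Fintype.card_prop]
    rw [hP]
    ring
  have : Fintype (Fin Dn × ((T → T) × (T → Prop))) := Fintype.ofFinite _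
  obtain ⟨i, hi, j, hj, hij, hcode⟩ : ∃ i ∈ A, ∃ j ∈ A, i ≠ j ∧ cd i = cd j := by
    refine Finset.exists_ne_map_eq_of_card_lt_of_maps_to (t := Finset.univ) ?_
      (fun _ _ => Finset.mem_univ _)
    rw [Finset.card_univ, ← Nat.card_eq_fintype_card, hcard]
    exact hcon
  obtain ⟨i, hi, j, hj, hij, hcode⟩ : ∃ i ∈ A, ∃ j ∈ A, i < j ∧ cd i = cd j := by
    rcases lt_or_gt_of_ne hij with h' | h'
    · exact ⟨i, hi, j, hj, h', hcode⟩
    · exact ⟨j, hj, i, hi, h', hcode.symm⟩
  have hmod : i % Dn = j % Dn := by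
    have := congrArg (fun q => (q.1 : ℕ)) hcode
    exact this
  have hcd : code (fun a : T => (a.1 : G) • p i a.2) (ball S x i) =
      code (fun a : T => (a.1 : G) • p j a.2) (ball S x j) := congrArg Prod.snd hcode
  have hijD : i + Dn ≤ j := by
    have h1 : (j - i) % Dn = 0 := by
      have := (Nat.modEq_iff_dvd' hij.le).1 hmod
      exact Nat.mod_eq_zero_of_dvd this
    obtain ⟨c, hc⟩ := Nat.dvd_of_mod_eq_zero h1
    have hc0 : c ≠ 0 := by
      rintro rfl
      omega
    have : Dn * 1 ≤ Dn * c := Nat.mul_le_mul_left _ (Nat.one_le_iff_ne_zero.2 hc0)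
    omega
  have Dg : Glue E M s (ball S x i) (ball S x j) (p i) (p j) :=
    glue_of_code hE1 hEinv (hp i hi) (hp j hj)
      (fun g hg y hy => ball_mono S x hijD (hthick i g hg y hy)) hcd
  obtain ⟨f, hf⟩ := exists_ne_one_of_glue π hπ R hR hEa hM2 hRM Dg (hballne i) (hballuniv j)
  exact hf (hact _ ((hballfin j).subset Set.sdiff_subset) f)

theorem band_sum (b : ℕ → ℕ) (hb : Monotone b) (L n : ℕ) :
    ∑ k ∈ Finset.range (n + 1), (b k - b (k - L)) ≤ L * b n := by
  have h1 : ∀ n, ∑ k ∈ Finset.range (n + 1), (b k - b (k - L)) ≤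
      ∑ j ∈ Finset.range L, b (n - j) := by
    intro n
    induction n with
    | zero => simp
    | succ n ih =>
      rw [Finset.sum_range_succ]
      have h2 : ∑ j ∈ Finset.range L, b (n + 1 - j) + b (n + 1 - L) =
          ∑ j ∈ Finset.range L, b (n - j) + b (n + 1) := by
        rw [← Finset.sum_range_succ (fun j => b (n + 1 - j)), Finset.sum_range_succ']
        congr 1
        apply Finset.sum_congr rfl
        intro j _
        congr 1
        omega
      have h3 : b (n + 1 - L) ≤ b (n + 1) := hb (by omega)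
      omega
  refine (h1 n).trans ?_
  calc ∑ j ∈ Finset.range L, b (n - j) ≤ ∑ _j ∈ Finset.range L, b n :=
        Finset.sum_le_sum fun j _ => hb (by omega)
    _ = L * b n := by simp

theorem quant_nat [Group.IsFinitelyPresented G] (S : Set G) (hSf : S.Finite)
    (hS : Subgroup.closure S = ⊤) :
    ∃ L β D : ℕ, 1 ≤ L ∧ 1 ≤ β ∧ 1 ≤ D ∧
      ∀ (X : Type v) [MulAction G X] [MulAction.IsPretransitive G X] [Infinite X] (x : X),
        (∀ (Y : Set X), Y.Finite → ∀ f : G →* Equiv.Perm Y, f = 1) → ∀ s n : ℕ, 2 * L ≤ n →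
        4 * (D * (2 * (β * s)) ^ (β * s)) ≤ n → (s + 1) * n ≤ 4 * (L * (ball S x n).ncard) := by
  classical
  obtain ⟨L, β, D, hL, hβ, hD, h⟩ := quant_core.{u, v} S hSf hS
  refine ⟨L, β, D, hL, hβ, hD, ?_⟩
  intro X _ _ _ x hact s n hn hs
  have h1 := h X x hact s n hn
  have hmono : Monotone fun k => (ball S x k).ncard := fun i j hij =>
    Set.ncard_le_ncard (ball_mono S x hij) (ball_finite hSf x j)
  have hsum := band_sum (fun k => (ball S x k).ncard) hmono L n
  have hband : ∀ k, (ball S x k \ ball S x (k - L)).ncard =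
      (ball S x k).ncard - (ball S x (k - L)).ncard := by
    intro k
    have := Set.ncard_sdiff_add_ncard_of_subset (ball_mono S x (Nat.sub_le k L))
      (ball_finite hSf x k)
    omega
  set A := (Finset.Ioc (n / 2) n).filter
    (fun k => (ball S x k \ ball S x (k - L)).ncard ≤ s) with hA
  set B := (Finset.Ioc (n / 2) n).filter
    (fun k => ¬ (ball S x k \ ball S x (k - L)).ncard ≤ s) with hB
  have hAB : A.card + B.card = n - n / 2 := by
    rw [hA, hB, Finset.card_filter_add_card_filter_not, Nat.card_Ioc]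
  have hBsub : B ⊆ Finset.range (n + 1) := by
    intro k hk
    rw [hB, Finset.mem_filter, Finset.mem_Ioc] at hk
    rw [Finset.mem_range]
    omega
  have h2 : B.card * (s + 1) ≤ ∑ k ∈ Finset.range (n + 1),
      ((ball S x k).ncard - (ball S x (k - L)).ncard) := by
    calc B.card * (s + 1) = ∑ _k ∈ B, (s + 1) := by simp
      _ ≤ ∑ k ∈ B, ((ball S x k).ncard - (ball S x (k - L)).ncard) := by
        apply Finset.sum_le_sum
        intro k hk
        rw [hB, Finset.mem_filter] at hk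
        rw [← hband]
        omega
      _ ≤ _ := Finset.sum_le_sum_of_subset hBsub
  have h3 : n ≤ 4 * B.card := by omega
  calc (s + 1) * n ≤ (s + 1) * (4 * B.card) := Nat.mul_le_mul_left _ h3
    _ = 4 * (B.card * (s + 1)) := by ring
    _ ≤ 4 * (L * (ball S x n).ncard) := Nat.mul_le_mul_left _ (h2.trans hsum)

theorem log_estimate (β D n : ℕ) (hβ : 1 ≤ β) (hn16 : 16 ≤ n) (hnD : 16 * D ^ 2 ≤ n) :
    4 * (D * (2 * (β * ⌊(Real.log n / Real.log (Real.log n)) / (2 * β)⌋₊)) ^
      (β * ⌊(Real.log n / Real.log (Real.log n)) / (2 * β)⌋₊)) ≤ n := by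
  set l1 := Real.log n with hl1
  set l2 := Real.log l1 with hl2
  set s := ⌊(l1 / l2) / (2 * β)⌋₊ with hs
  have hn0 : (0 : ℝ) < n := by positivity
  have hl1e : Real.exp 1 ≤ l1 := by
    have h1 : Real.log 16 ≤ l1 := Real.log_le_log (by norm_num) (by exact_mod_cast hn16)
    have h2 : Real.log 16 = 4 * Real.log 2 := by
      rw [show (16 : ℝ) = 2 ^ (4 : ℕ) by norm_num, Real.log_pow]
      norm_num
    have h3 := Real.log_two_gt_d9
    have h4 := Real.exp_one_lt_d9
    linarith
  have hl1pos : 0 < l1 := (Real.exp_pos 1).trans_le hl1e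
  have hl2one : 1 ≤ l2 := by
    rw [hl2, Real.le_log_iff_exp_le hl1pos]
    exact hl1e
  have hβ' : (1 : ℝ) ≤ β := by exact_mod_cast hβ
  have hs_le : (s : ℝ) ≤ (l1 / l2) / (2 * β) := Nat.floor_le (by positivity)
  have h2bs : (2 * (β * s) : ℝ) ≤ l1 / l2 := by
    have := mul_le_mul_of_nonneg_left hs_le (show (0 : ℝ) ≤ 2 * β by positivity)
    rw [mul_div_cancel₀ _ (by positivity)] at this
    linarith
  have hdiv : l1 / l2 ≤ l1 := div_le_self hl1pos.le hl2one
  -- bound the power
  have hpow : ((2 * (β * s) : ℕ) : ℝ) ^ (β * s) ≤ Real.sqrt n := by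
    rcases Nat.eq_zero_or_pos (β * s) with h0 | h0
    · rw [h0, pow_zero]
      rw [Real.one_le_sqrt]
      exact_mod_cast (by omega : 1 ≤ n)
    · have hpos : (0 : ℝ) < ((2 * (β * s) : ℕ) : ℝ) := by exact_mod_cast (by omega)
      have h1 : Real.log (((2 * (β * s) : ℕ) : ℝ) ^ (β * s)) ≤ l1 / 2 := by
        rw [Real.log_pow]
        have h2 : Real.log ((2 * (β * s) : ℕ) : ℝ) ≤ l2 := by
          apply Real.log_le_log hpos
          push_cast
          linarith
        have h3 : (((β * s : ℕ) : ℝ)) ≤ l1 / l2 / 2 := by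
          push_cast
          linarith
        calc ((β * s : ℕ) : ℝ) * Real.log ((2 * (β * s) : ℕ) : ℝ)
            ≤ (l1 / l2 / 2) * l2 := by
              apply mul_le_mul h3 h2 _ (by positivity)
              apply Real.log_nonneg
              exact_mod_cast (by omega : 1 ≤ 2 * (β * s))
          _ = l1 / 2 := by field_simp
      rw [Real.sqrt_eq_rpow, Real.rpow_def_of_pos hn0]
      rw [Real.log_le_iff_le_exp (by positivity)] at h1
      refine h1.trans (le_of_eq ?_)
      congr 1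
      ring
  have hfinal : (4 * (D * ((2 * (β * s) : ℕ) : ℝ) ^ (β * s)) : ℝ) ≤ n := by
    have h1 : (4 * (D : ℝ)) ≤ Real.sqrt n := by
      apply Real.le_sqrt_of_sq_le
      have : ((16 * D ^ 2 : ℕ) : ℝ) ≤ n := by exact_mod_cast hnD
      push_cast at this
      nlinarith
    calc (4 * (D * ((2 * (β * s) : ℕ) : ℝ) ^ (β * s)) : ℝ)
        = (4 * (D : ℝ)) * ((2 * (β * s) : ℕ) : ℝ) ^ (β * s) := by ring
      _ ≤ Real.sqrt n * Real.sqrt n := by
          apply mul_le_mul h1 hpow (by positivity) (Real.sqrt_nonneg _)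
      _ = n := Real.mul_self_sqrt hn0.le
  exact_mod_cast hfinal

/-- **Schreier growth gap** for infinite finitely presented simple groups. -/
theorem growth_gap [Group.IsFinitelyPresented G] [IsSimpleGroup G] [Infinite G]
    (S : Set G) (hSf : S.Finite) (hS : Subgroup.closure S = ⊤) :
    ∃ c : ℝ, 0 < c ∧ ∃ N : ℕ, ∀ (X : Type v) [MulAction G X] (x : X), (∃ g : G, g • x ≠ x) →
      ∀ n : ℕ, N ≤ n →
        c * n * (Real.log n / Real.log (Real.log n)) ≤ (ball S x n).ncard := by
  obtain ⟨L, β, D, hL, hβ, hD, h⟩ := quant_nat.{u, v} S hSf hS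
  have hL' : (1 : ℝ) ≤ L := by exact_mod_cast hL
  have hβ' : (1 : ℝ) ≤ β := by exact_mod_cast hβ
  refine ⟨1 / (8 * β * L), by positivity, max 16 (max (16 * D ^ 2) (2 * L)), ?_⟩
  intro X _ x hx n hn
  have hn1 : 16 ≤ n := (le_max_left _ _).trans hn
  have hn2 : 16 * D ^ 2 ≤ n := ((le_max_left _ _).trans (le_max_right _ _)).trans hn
  have hn3 : 2 * L ≤ n := ((le_max_right _ _).trans (le_max_right _ _)).trans hn
  have : Infinite ↥(MulAction.orbit G x) := (infinite_orbit x hx).to_subtype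
  set s := ⌊(Real.log n / Real.log (Real.log n)) / (2 * β)⌋₊ with hs
  have h1 := h ↥(MulAction.orbit G x) ⟨x, MulAction.mem_orbit_self x⟩
    (fun Y hY f => by
      have : Finite ↥Y := hY.to_subtype
      exact no_finite_action f) s n hn3 (log_estimate β D n hβ hn1 hn2)
  have h2 : (ball S (⟨x, MulAction.mem_orbit_self x⟩ : ↥(MulAction.orbit G x)) n).ncard =
      (ball S x n).ncard := by
    rw [← Set.ncard_image_of_injective _ Subtype.val_injective]
    congr 1
    ext y
    constructor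
    · rintro ⟨_, ⟨l, hl, hl', rfl⟩, rfl⟩
      exact ⟨l, hl, hl', rfl⟩
    · rintro ⟨l, hl, hl', rfl⟩
      exact ⟨_, ⟨l, hl, hl', rfl⟩, rfl⟩
  rw [h2] at h1
  have h3 : ((s : ℝ) + 1) * n ≤ 4 * (L * ((ball S x n).ncard : ℝ)) := by exact_mod_cast h1
  have h4 : (Real.log n / Real.log (Real.log n)) / (2 * β) ≤ (s : ℝ) + 1 := (Nat.lt_floor_add_one _).le
  have h5 : (Real.log n / Real.log (Real.log n)) / (2 * β) * n ≤
      4 * (L * ((ball S x n).ncard : ℝ)) :=
    (mul_le_mul_of_nonneg_right h4 (Nat.cast_nonneg n)).trans h3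
  have h6 : 1 / (8 * β * L) * n * (Real.log n / Real.log (Real.log n)) =
      ((Real.log n / Real.log (Real.log n)) / (2 * β) * n) / (4 * L) := by
    field_simp
    ring
  rw [h6, div_le_iff₀ (by positivity)]
  linarith

end

end Vale.Agent.P196
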